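import Vale.Agent.P198.Base

/-! # P198 E/A: positivity, Cauchy-Schwarz, locality -/

namespace Vale.Agent.P198
open Set Metric Filter Topology MeasureTheory
variable {G Z : Type} [Group G] [MetricSpace Z] [CompactSpace Z] [MulAction G Z]
  [ContinuousConstSMul G Z] [MeasurableSpace Z] [BorelSpace Z]

theorem DF.const_mem (D : DF G Z) (c : ℝ) : ContinuousMap.const Z c ∈ D.dom := by
  exact D.comp_mem 0 D.dom.zero_mem 0 D.dom.zero_mem 0 (fun _ => c) (fun _ _ => by simp) _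
    fun _ => rfl

theorem DF.nonneg (D : DF G Z) {θ f : C(Z, ℝ)} (hθ : ∀ ξ, 0 ≤ θ ξ) (hf : f ∈ D.dom) :
    0 ≤ D.I θ f f := by
  rw [D.repr θ f hf]
  exact integral_nonneg hθ

omit [MeasurableSpace Z] [BorelSpace Z] in
theorem pou_add (Φ : C(Z, ℝ) → ℝ) (hΦ : ∀ a b, Φ (a + b) = Φ a + Φ b) {θ : C(Z, ℝ)}
    (hθ : ∀ ζ, 0 ≤ θ ζ)
    (H : ∀ ξ, ∃ W ∈ 𝓝 ξ, ∀ ρ : C(Z, ℝ), (∀ ζ, 0 ≤ ρ ζ) → tsupport ρ ⊆ W → 0 ≤ Φ ρ) : 0 ≤ Φ θ := by
  choose W hW H using H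
  obtain ⟨t, ht⟩ := isCompact_univ.elim_finite_subcover (fun ξ => interior (W ξ))
    (fun _ => isOpen_interior) fun ξ _ => mem_iUnion.2 ⟨ξ, mem_interior_iff_mem_nhds.2 (hW ξ)⟩
  obtain ⟨ρ, h1, h2, h3, -⟩ := exists_continuous_sum_one_of_isOpen_isCompact (n := t.card)
    (s := fun i => interior (W (t.equivFin.symm i))) (fun _ => isOpen_interior) isCompact_univ
    fun ζ hζ => by
      obtain ⟨i, hi, h⟩ := mem_iUnion₂.1 (ht hζ)
      exact mem_iUnion.2 ⟨t.equivFin ⟨i, hi⟩, by simpa using h⟩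
  have e : θ = ∑ i, θ * ρ i := by
    ext ζ
    have := h2 (mem_univ ζ)
    simp only [Finset.sum_apply, Pi.one_apply] at this
    simp [← Finset.mul_sum, this]
  have e2 := map_sum (AddMonoidHom.mk' Φ hΦ) (fun i => θ * ρ i) Finset.univ
  simp only [AddMonoidHom.mk'_apply] at e2
  rw [e, e2]
  exact Finset.sum_nonneg fun i _ => H _ _ (fun ζ => mul_nonneg (hθ ζ) (h3 i ζ).1)
    ((tsupport_mul_subset_right (f := θ) (g := ρ i)).trans ((h1 i).trans interior_subset))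

omit [MeasurableSpace Z] [BorelSpace Z] in
/-- Localization by a partition of unity. -/
theorem pou_nonneg (Φ : C(Z, ℝ) →ₗ[ℝ] ℝ) {θ : C(Z, ℝ)} (hθ : ∀ ζ, 0 ≤ θ ζ)
    (H : ∀ ξ, ∃ W ∈ 𝓝 ξ, ∀ ρ : C(Z, ℝ), (∀ ζ, 0 ≤ ρ ζ) → tsupport ρ ⊆ W → 0 ≤ Φ ρ) : 0 ≤ Φ θ := by
  exact pou_add Φ (map_add Φ) hθ H

theorem DF.amgm (D : DF G Z) {θ κ f g : C(Z, ℝ)} (h : ∀ ξ, |θ ξ| ≤ κ ξ) (hf : f ∈ D.dom)
    (hg : g ∈ D.dom) : 2 * |D.I θ f g| ≤ D.I κ f f + D.I κ g g := by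
  have p : ∀ ξ, 0 ≤ (κ + θ) ξ := fun ξ => by
    have := (abs_le.1 (h ξ)).1
    simp only [ContinuousMap.add_apply]
    linarith
  have m : ∀ ξ, 0 ≤ (κ - θ) ξ := fun ξ => sub_nonneg.2 (abs_le.1 (h ξ)).2
  have h1 := D.nonneg p (D.dom.add_mem hf hg)
  have h2 := D.nonneg m (D.dom.sub_mem hf hg)
  have h3 := D.nonneg m (D.dom.add_mem hf hg)
  have h4 := D.nonneg p (D.dom.sub_mem hf hg)
  simp only [map_add, map_sub, LinearMap.add_apply, LinearMap.sub_apply, D.symm θ g f,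
    D.symm κ g f] at h1 h2 h3 h4
  rcases abs_cases (D.I θ f g) with e | e <;> linarith [e.1]

/-- Freezing a coefficient. -/
theorem DF.frz (D : DF G Z) {ρ c f g : C(Z, ℝ)} {k η : ℝ} (h0 : ∀ ζ, 0 ≤ ρ ζ)
    (h : ∀ ζ ∈ tsupport ρ, |c ζ - k| ≤ η) (hf : f ∈ D.dom) (hg : g ∈ D.dom) :
    2 * |D.I (ρ * c) f g - k * D.I ρ f g| ≤ η * (D.I ρ f f + D.I ρ g g) := by
  have e := D.amgm (θ := ρ * c - k • ρ) (κ := η • ρ) (fun ζ => ?_) hf hg
  · simpa only [map_sub, map_smul, LinearMap.sub_apply, LinearMap.smul_apply, smul_eq_mul,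
      ← mul_add] using e
  · have e : (ρ * c - k • ρ) ζ = (c ζ - k) * ρ ζ := by
      simp only [ContinuousMap.sub_apply, ContinuousMap.mul_apply, ContinuousMap.smul_apply,
        smul_eq_mul]
      ring
    rw [e, abs_mul, abs_of_nonneg (h0 ζ), ContinuousMap.smul_apply, smul_eq_mul]
    by_cases hζ : ζ ∈ tsupport ρ
    · exact mul_le_mul_of_nonneg_right (h ζ hζ) (h0 ζ)
    · rw [image_eq_zero_of_notMem_tsupport hζ, mul_zero, mul_zero]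

omit [CompactSpace Z] [MeasurableSpace Z] [BorelSpace Z] in
theorem ev_close (c : C(Z, ℝ)) (ξ : Z) {η : ℝ} (hη : 0 < η) : ∀ᶠ ζ in 𝓝 ξ, |c ζ - c ξ| ≤ η :=
  (c.continuous.tendsto ξ).eventually (closedBall_mem_nhds (c ξ) hη)

theorem nonneg_of_eps {x C : ℝ} (h : ∀ η > 0, 0 ≤ x + η * C) : 0 ≤ x := by
  have t : Tendsto (fun η : ℝ => x + η * C) (𝓝[>] 0) (𝓝 (x + 0 * C)) :=
    ((by fun_prop : Continuous fun η : ℝ => x + η * C).tendsto 0).mono_left nhdsWithin_le_nhds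
  rw [zero_mul, add_zero] at t
  exact ge_of_tendsto t (eventually_nhdsWithin_of_forall h)

theorem DF.quad (D : DF G Z) (a b : C(Z, ℝ)) {f g : C(Z, ℝ)} (hf : f ∈ D.dom) (hg : g ∈ D.dom) :
    0 ≤ D.I (a * a) f f + 2 * D.I (a * b) f g + D.I (b * b) g g := by
  refine nonneg_of_eps (C := 2 * (D.I 1 f f + D.I 1 g g)) fun η hη => ?_
  have e := pou_add (fun ρ => D.I (ρ * (a * a)) f f + 2 * D.I (ρ * (a * b)) f g +
    D.I (ρ * (b * b)) g g + η * (2 * (D.I ρ f f + D.I ρ g g))) (fun x y => by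
      simp only [add_mul, map_add, LinearMap.add_apply]
      ring) (θ := 1) (fun _ => zero_le_one) fun ξ => ⟨_, ((ev_close (a * a) ξ hη).and
        (ev_close (a * b) ξ hη)).and (ev_close (b * b) ξ hη), fun ρ h0 hρ => ?_⟩
  · simpa only [one_mul] using e
  have h1 := D.frz h0 (fun ζ hζ => (hρ hζ).1.1) hf hf
  have h2 := D.frz h0 (fun ζ hζ => (hρ hζ).1.2) hf hg
  have h3 := D.frz h0 (fun ζ hζ => (hρ hζ).2) hg hg
  have h4 := D.nonneg h0 (D.dom.add_mem (D.dom.smul_mem (a ξ) hf) (D.dom.smul_mem (b ξ) hg))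
  simp only [map_add, map_smul, LinearMap.add_apply, LinearMap.smul_apply, smul_eq_mul,
    D.symm ρ g f, ContinuousMap.mul_apply] at h1 h2 h3 h4
  linarith [neg_abs_le (D.I (ρ * (a * a)) f f - a ξ * a ξ * D.I ρ f f),
    neg_abs_le (D.I (ρ * (a * b)) f g - a ξ * b ξ * D.I ρ f g),
    neg_abs_le (D.I (ρ * (b * b)) g g - b ξ * b ξ * D.I ρ g g)]

/-- Cauchy-Schwarz. -/
theorem DF.cs (D : DF G Z) (a b : C(Z, ℝ)) {f g : C(Z, ℝ)} (hf : f ∈ D.dom) (hg : g ∈ D.dom) :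
    D.I (a * b) f g ^ 2 ≤ D.I (a * a) f f * D.I (b * b) g g := by
  have e := discrim_le_zero (a := D.I (a * a) f f) (b := 2 * D.I (a * b) f g)
    (c := D.I (b * b) g g) fun x => by
      have := D.quad (x • a) b hf hg
      simp only [smul_mul_assoc, mul_smul_comm, map_smul, LinearMap.smul_apply, smul_eq_mul] at this
      linarith
  rw [discrim] at e
  linarith

theorem DF.abs_le (D : DF G Z) (θ : C(Z, ℝ)) {f g : C(Z, ℝ)} (hf : f ∈ D.dom) (hg : g ∈ D.dom) :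
    D.I θ f g ^ 2 ≤ ‖θ‖ ^ 2 * (D.I 1 f f * D.I 1 g g) := by
  have h1 := D.cs θ 1 hf hg
  have h2 := D.nonneg (θ := (‖θ‖ ^ 2) • (1 : C(Z, ℝ)) - θ * θ) (fun ξ => by
    have := sq_le_sq' (neg_le_of_abs_le (θ.norm_coe_le_norm ξ)) (le_of_abs_le (θ.norm_coe_le_norm ξ))
    simp only [ContinuousMap.sub_apply, ContinuousMap.smul_apply, ContinuousMap.mul_apply,
      ContinuousMap.one_apply, smul_eq_mul]
    linarith) hf
  simp only [map_sub, map_smul, LinearMap.sub_apply, LinearMap.smul_apply, smul_eq_mul] at h2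
  rw [mul_one, mul_one] at h1
  rw [← mul_assoc]
  exact h1.trans (mul_le_mul_of_nonneg_right (by linarith) (D.nonneg (fun _ => zero_le_one) hg))

/-- Strong locality. -/
theorem DF.loc (D : DF G Z) {θ f f' g : C(Z, ℝ)} (hf : f ∈ D.dom) (hf' : f' ∈ D.dom)
    (hg : g ∈ D.dom) {W : Set Z} (hW : IsOpen W) (hθ : tsupport θ ⊆ W) (c : ℝ)
    (h : ∀ ξ ∈ W, f ξ = f' ξ + c) : D.I θ f g = D.I θ f' g := by
  have hd := D.dom.sub_mem hf hf'
  have h1 := D.contr 0 D.dom.zero_mem 0 D.dom.zero_mem _ hd 0 (fun _ => c) (fun _ _ => by simp) W hW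
    (fun ξ hξ => by simp [h ξ hξ]) (θ * θ) (fun ξ => mul_self_nonneg _)
    ((tsupport_mul_subset_right (f := θ) (g := θ)).trans hθ)
  have h2 := D.cs θ 1 hd hg
  rw [mul_one, mul_one] at h2
  have h3 := mul_nonpos_of_nonpos_of_nonneg (h1.trans_eq (zero_mul _))
    (D.nonneg (θ := 1) (fun _ => zero_le_one) hg)
  have h4 := pow_eq_zero_iff (two_ne_zero) |>.1 (le_antisymm (h2.trans h3) (sq_nonneg _))
  rwa [map_sub, LinearMap.sub_apply, sub_eq_zero] at h4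

/-- If near each point `f` or `g` is constant, then the mixed energy vanishes. -/
theorem DF.orth (D : DF G Z) (θ : C(Z, ℝ)) {f g : C(Z, ℝ)} (hf : f ∈ D.dom) (hg : g ∈ D.dom)
    (h : ∀ ξ, (∀ᶠ ζ in 𝓝 ξ, f ζ = f ξ) ∨ ∀ᶠ ζ in 𝓝 ξ, g ζ = g ξ) : D.I θ f g = 0 := by
  have k : ∀ {f g : C(Z, ℝ)}, f ∈ D.dom → g ∈ D.dom → ∀ ξ, ∀ ρ : C(Z, ℝ),
      tsupport ρ ⊆ interior {ζ | f ζ = f ξ} → D.I (ρ * θ) f g = 0 := fun {f g} hf hg ξ ρ hρ => by
    rw [D.loc hf D.dom.zero_mem hg isOpen_interior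
      ((tsupport_mul_subset_left (f := ρ) (g := θ)).trans hρ) (f ξ)
      fun ζ hζ => by simpa using interior_subset hζ]
    simp
  have H : ∀ ξ, ∃ W ∈ 𝓝 ξ, ∀ ρ : C(Z, ℝ), tsupport ρ ⊆ W → D.I (ρ * θ) f g = 0 := fun ξ => by
    rcases h ξ with e | e
    · exact ⟨_, interior_mem_nhds.2 e, k hf hg ξ⟩
    · exact ⟨_, interior_mem_nhds.2 e, fun ρ hρ => by rw [D.symm]; exact k hg hf ξ ρ hρ⟩
  have k2 : ∀ s : ℝ, 0 ≤ s * D.I (1 * θ) f g := fun s =>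
    pou_add (fun ρ => s * D.I (ρ * θ) f g) (fun x y => by
      simp only [add_mul, map_add, LinearMap.add_apply, mul_add]) (fun _ => zero_le_one) fun ξ =>
      let ⟨W, hW, e⟩ := H ξ
      ⟨W, hW, fun ρ _ hρ => by simp only [e ρ hρ, mul_zero, le_refl]⟩
  have a1 := k2 1
  have a2 := k2 (-1)
  rw [one_mul θ] at a1 a2
  linarith

end Vale.Agent.P198
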