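import Vale.Agent.P198.E.A

/-! # P198 E/B: the domain is an algebra, cutoffs, locality of membership, invariance, closedness
Plan. `cmem`, `ccontr`: `LipschitzOnWith.extend_real`, then `comp_mem`, `contr` with `lip2_of_lip`.
`c1mem`: `ContDiffOn.exists_lipschitzOnWith` on a closed ball containing the range. `mul_mem`: `c1mem` with
`z.re * z.im`. `cutoff`, `mem_loc`: `IsCompact.induction_on`, union step `χ₁ + χ₂ - χ₁ * χ₂`; for `cutoff` the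
local step is `max 0 (min 1 ·)` of `D.cut p r` with `closedBall p r ⊆ O`; for `mem_loc` the property of `S` is
`∃ χ ∈ dom, h * χ ∈ dom ∧ ∀ ξ ∈ S, χ ξ = 1` (locally `h * χ = f * χ`). `loc_energy`: `mem_loc`, `lmem`, `pou_nonneg`
for `ρ ↦ I ρ f f - I ρ h h` with `contr` (`f₂ = 0`, `L = 1`), then `lsc`. `map_pull`:
`ext_of_forall_integral_eq_of_IsFiniteMeasure`, `integral_map`, `repr`, `inv`. `Harm.pull`:
`h = pull g (pull g⁻¹ h)`, `1 = pull g 1`. `closed`: `lsc` for `m ↦ f n - f (m + N)`. -/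

namespace Vale.Agent.P198
open Set Metric Filter Topology MeasureTheory
variable {G Z : Type} [Group G] [MetricSpace Z] [CompactSpace Z] [MulAction G Z]
  [ContinuousConstSMul G Z] [MeasurableSpace Z] [BorelSpace Z]

theorem lip2_of_lip {ψ : ℂ → ℝ} {K : NNReal} (h : LipschitzWith K ψ) :
    Lip2 ((K : ℝ) ^ 2) fun p => ψ ⟨p.1, p.2⟩ := by
  intro p p'
  have h1 := h.dist_le_mul ⟨p.1, p.2⟩ ⟨p'.1, p'.2⟩
  rw [Real.dist_eq, dist_eq_norm] at h1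
  have h2 := pow_le_pow_left₀ (abs_nonneg _) h1 2
  rw [sq_abs, mul_pow, Complex.sq_norm, Complex.normSq_apply] at h2
  simpa [sq] using h2

theorem lip2_fst_EB {T : ℝ → ℝ} {K : NNReal} (h : LipschitzWith K T) :
    Lip2 ((K : ℝ) ^ 2) fun p => T p.1 := by
  intro p p'
  have h1 := h.dist_le_mul p.1 p'.1
  rw [Real.dist_eq, Real.dist_eq] at h1
  have h2 := pow_le_pow_left₀ (abs_nonneg _) h1 2
  rw [sq_abs, mul_pow, sq_abs] at h2
  nlinarith [mul_nonneg (sq_nonneg (K : ℝ)) (sq_nonneg (p.2 - p'.2))]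

theorem DF.cmem (D : DF G Z) {u v h : C(Z, ℝ)} (hu : u ∈ D.dom) (hv : v ∈ D.dom) {ψ : ℂ → ℝ}
    {K : NNReal} {S : Set ℂ} (hψ : LipschitzOnWith K ψ S) (hS : ∀ ξ, cx u v ξ ∈ S)
    (hh : ∀ ξ, h ξ = ψ (cx u v ξ)) : h ∈ D.dom := by
  obtain ⟨φ, hφ, e⟩ := hψ.extend_real
  exact D.comp_mem u hu v hv _ _ (lip2_of_lip hφ) h fun ξ => (hh ξ).trans (e (hS ξ))

theorem DF.ccontr (D : DF G Z) {u v h θ : C(Z, ℝ)} (hu : u ∈ D.dom) (hv : v ∈ D.dom)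
    (hh : h ∈ D.dom) {ψ : ℂ → ℝ} {K : NNReal} {S : Set ℂ} (hψ : LipschitzOnWith K ψ S) {W : Set Z}
    (hW : IsOpen W) (hS : ∀ ξ ∈ W, cx u v ξ ∈ S) (e : ∀ ξ ∈ W, h ξ = ψ (cx u v ξ))
    (h0 : ∀ ξ, 0 ≤ θ ξ) (hθ : tsupport θ ⊆ W) :
    D.I θ h h ≤ (K : ℝ) ^ 2 * (D.I θ u u + D.I θ v v) := by
  obtain ⟨φ, hφ, e'⟩ := hψ.extend_real
  exact D.contr u hu v hv h hh _ _ (lip2_of_lip hφ) W hW
    (fun ξ hξ => (e ξ hξ).trans (e' (hS ξ hξ))) θ h0 hθ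

theorem DF.c1mem (D : DF G Z) {u v h : C(Z, ℝ)} (hu : u ∈ D.dom) (hv : v ∈ D.dom) {ψ : ℂ → ℝ}
    (hψ : ContDiff ℝ 1 ψ) (hh : ∀ ξ, h ξ = ψ (cx u v ξ)) : h ∈ D.dom := by
  obtain ⟨K, hK⟩ := (hψ.contDiffOn (s := closedBall 0 (‖u‖ + ‖v‖))).exists_lipschitzOnWith
    one_ne_zero (convex_closedBall _ _) (isCompact_closedBall _ _)
  refine D.cmem hu hv hK (fun ξ => ?_) hh
  rw [mem_closedBall_zero_iff]
  exact (Complex.norm_le_abs_re_add_abs_im _).trans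
    (add_le_add (u.norm_coe_le_norm ξ) (v.norm_coe_le_norm ξ))

theorem DF.lmem (D : DF G Z) {f h : C(Z, ℝ)} (hf : f ∈ D.dom) {T : ℝ → ℝ} {K : NNReal}
    (hT : LipschitzWith K T) (hh : ∀ ξ, h ξ = T (f ξ)) : h ∈ D.dom := by
  exact D.comp_mem f hf f hf _ _ (lip2_fst_EB hT) h hh

theorem DF.mul_mem (D : DF G Z) {f g : C(Z, ℝ)} (hf : f ∈ D.dom) (hg : g ∈ D.dom) :
    f * g ∈ D.dom := by
  exact D.c1mem hf hg (ψ := fun z => z.re * z.im)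
    (Complex.reCLM.contDiff.mul Complex.imCLM.contDiff) fun _ => rfl

theorem DF.cutoff (D : DF G Z) {K O : Set Z} (hK : IsCompact K) (hO : IsOpen O) (h : K ⊆ O) :
    ∃ χ ∈ D.dom, (∀ ξ, 0 ≤ χ ξ ∧ χ ξ ≤ 1) ∧ (∀ᶠ ξ in 𝓝ˢ K, χ ξ = 1) ∧ tsupport χ ⊆ O := by
  refine hK.induction_on (p := fun S => ∃ χ ∈ D.dom, (∀ ξ, 0 ≤ χ ξ ∧ χ ξ ≤ 1) ∧
    (∀ᶠ ξ in 𝓝ˢ S, χ ξ = 1) ∧ tsupport χ ⊆ O) ?_ ?_ ?_ ?_
  · refine ⟨0, D.dom.zero_mem, fun _ => ⟨le_rfl, zero_le_one⟩, by simp, ?_⟩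
    simp [tsupport]
  · rintro S T hST ⟨χ, h1, h2, h3, h4⟩
    exact ⟨χ, h1, h2, h3.filter_mono (nhdsSet_mono hST), h4⟩
  · rintro S T ⟨χ, h1, h2, h3, h4⟩ ⟨χ', h1', h2', h3', h4'⟩
    refine ⟨χ + χ' - χ * χ', D.dom.sub_mem (D.dom.add_mem h1 h1') (D.mul_mem h1 h1'),
      fun ξ => ?_, ?_, ?_⟩
    · obtain ⟨a, b⟩ := h2 ξ
      obtain ⟨a', b'⟩ := h2' ξ
      simp only [ContinuousMap.sub_apply, ContinuousMap.add_apply, ContinuousMap.mul_apply]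
      constructor <;> nlinarith
    · rw [nhdsSet_union, eventually_sup]
      exact ⟨h3.mono fun ξ e => by simp [e], h3'.mono fun ξ e => by simp [e]⟩
    · refine (closure_minimal (fun ξ hξ => ?_)
        ((isClosed_tsupport χ).union (isClosed_tsupport χ'))).trans (union_subset h4 h4')
      by_contra hn
      rw [mem_union, not_or] at hn
      exact hξ (by simp [image_eq_zero_of_notMem_tsupport hn.1,
        image_eq_zero_of_notMem_tsupport hn.2])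
  · intro p hp
    obtain ⟨r, hr, hrO⟩ := nhds_basis_closedBall.mem_iff.1 (hO.mem_nhds (h hp))
    obtain ⟨χ, h1, h2, h3⟩ := D.cut p r hr
    refine ⟨interior {ξ | χ ξ = 1}, mem_nhdsWithin_of_mem_nhds (interior_mem_nhds.2 h2),
      ⟨fun ξ => max 0 (min 1 (χ ξ)), by fun_prop⟩,
      D.lmem h1 ((LipschitzWith.id.const_min 1).const_max 0) fun _ => rfl,
      fun ξ => ⟨le_max_left _ _, max_le zero_le_one (min_le_left _ _)⟩, ?_, ?_⟩
    · filter_upwards [isOpen_interior.mem_nhdsSet_self] with ξ hξ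
      have e : χ ξ = 1 := interior_subset (s := {ξ | χ ξ = 1}) hξ
      simp [e]
    · refine (closure_minimal (fun ξ hξ => ?_) isClosed_closedBall).trans hrO
      by_contra hn
      exact hξ (by simp [h3 ξ (not_le.1 hn).le])

theorem DF.mem_loc (D : DF G Z) {h : C(Z, ℝ)} (H : ∀ ξ, ∃ f ∈ D.dom, ∀ᶠ ζ in 𝓝 ξ, h ζ = f ζ) :
    h ∈ D.dom := by
  obtain ⟨χ, -, h2, h3⟩ := isCompact_univ.induction_on
    (p := fun S => ∃ χ ∈ D.dom, h * χ ∈ D.dom ∧ ∀ ξ ∈ S, χ ξ = 1)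
    ⟨0, D.dom.zero_mem, by simp, by simp⟩
    (fun S T hST ⟨χ, h1, h2, h3⟩ => ⟨χ, h1, h2, fun ξ hξ => h3 ξ (hST hξ)⟩)
    (fun S T ⟨χ, h1, h2, h3⟩ ⟨χ', h1', h2', h3'⟩ => ⟨χ + χ' - χ * χ',
      D.dom.sub_mem (D.dom.add_mem h1 h1') (D.mul_mem h1 h1'), by
        rw [show h * (χ + χ' - χ * χ') = h * χ + h * χ' - h * χ * χ' by ring]
        exact D.dom.sub_mem (D.dom.add_mem h2 h2') (D.mul_mem h2 h1'),
      fun ξ hξ => by rcases hξ with e | e <;> simp [h3 ξ, h3' ξ, e]⟩)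
    (fun p _ => by
      obtain ⟨f, hf, e⟩ := H p
      obtain ⟨r, hr, hrW⟩ := Metric.mem_nhds_iff.1 e
      obtain ⟨χ, h1, h2, h3⟩ := D.cut p r hr
      refine ⟨{ξ | χ ξ = 1}, mem_nhdsWithin_of_mem_nhds h2, χ, h1, ?_, fun _ hξ => hξ⟩
      have e' : h * χ = f * χ := by
        ext ξ
        by_cases hξ : dist ξ p < r
        · have : h ξ = f ξ := hrW hξ
          simp [this]
        · simp [h3 ξ (not_lt.1 hξ)]
      rw [e']
      exact D.mul_mem hf h1)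
  have e : h * χ = h := by
    ext ξ
    simp [h3 ξ]
  exact e ▸ h2

theorem DF.loc_energy (D : DF G Z) {f g : C(Z, ℝ)} (hf : f ∈ D.dom) (h : Loc f g) :
    g ∈ D.dom ∧ D.I 1 g g ≤ D.I 1 f f := by
  have key : ∀ k : C(Z, ℝ), (∀ ξ, ∃ T : ℝ → ℝ, LipschitzWith 1 T ∧ ∀ᶠ ζ in 𝓝 ξ, k ζ = T (f ζ)) →
      k ∈ D.dom ∧ D.I 1 k k ≤ D.I 1 f f := by
    intro k hk
    have hm : k ∈ D.dom := D.mem_loc fun ξ => by
      obtain ⟨T, hT, e⟩ := hk ξ
      exact ⟨⟨fun ζ => T (f ζ), hT.continuous.comp f.continuous⟩, D.lmem hf hT fun _ => rfl, e⟩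
    refine ⟨hm, sub_nonneg.1 (pou_nonneg ((D.I.flip f).flip f - (D.I.flip k).flip k) (θ := 1)
      (fun _ => zero_le_one) fun ξ => ?_)⟩
    obtain ⟨T, hT, e⟩ := hk ξ
    refine ⟨interior {ζ | k ζ = T (f ζ)}, interior_mem_nhds.2 e, fun ρ h0 hρ => ?_⟩
    have := D.contr f hf 0 D.dom.zero_mem k hm _ _ (lip2_fst_EB hT) _ isOpen_interior
      (fun ζ hζ => interior_subset (s := {ζ | k ζ = T (f ζ)}) hζ) ρ h0 hρ
    simpa using this
  choose k hk1 hk2 using fun n : ℕ => h (1 / ((n : ℝ) + 1)) Nat.one_div_pos_of_nat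
  refine D.lsc k g _ (fun n => (key _ (hk2 n)).1) ?_ fun n => (key _ (hk2 n)).2
  rw [tendsto_iff_dist_tendsto_zero]
  exact squeeze_zero (fun _ => dist_nonneg) hk1 tendsto_one_div_add_atTop_nhds_zero_nat

theorem DF.map_pull (D : DF G Z) (g : G) {f : C(Z, ℝ)} (hf : f ∈ D.dom) :
    (D.Γ (pull g f)).map (fun ξ => g • ξ) = D.Γ f := by
  have := D.fin f
  have := D.fin (pull g f)
  refine ext_of_forall_integral_eq_of_IsFiniteMeasure fun θ => ?_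
  rw [integral_map (continuous_const_smul g).measurable.aemeasurable
    θ.continuous.aestronglyMeasurable]
  have e1 := D.repr (pull g θ.toContinuousMap) _ (D.inv_mem g f hf)
  rw [D.inv g _ f hf f hf, D.repr _ f hf] at e1
  exact e1.symm

theorem DF.Harm.pull {D : DF G Z} {O : Set Z} {u : C(Z, ℝ)} (hu : D.Harm O u) (g : G) :
    D.Harm ((fun ξ => g • ξ) ⁻¹' O) (pull g u) := by
  refine ⟨D.inv_mem g u hu.1, fun h hh hs => ?_⟩
  have hm := D.inv_mem g⁻¹ h hh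
  have e1 : P198.pull g (P198.pull g⁻¹ h) = h := by
    ext ξ
    simp [P198.pull]
  have e2 : P198.pull g (1 : C(Z, ℝ)) = 1 := rfl
  have e3 := D.inv g 1 u hu.1 _ hm
  rw [e1, e2] at e3
  rw [e3]
  refine hu.2 _ hm ((closure_minimal (t := (fun ξ => g⁻¹ • ξ) ⁻¹' tsupport h) (fun ξ hξ => ?_)
    ((isClosed_tsupport h).preimage (continuous_const_smul _))).trans fun ξ hξ => ?_)
  · exact subset_tsupport _ hξ
  · simpa using hs hξ

/-- Energy-Cauchy sequences that converge uniformly converge in energy. -/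
theorem DF.closed (D : DF G Z) {f : ℕ → C(Z, ℝ)} {g : C(Z, ℝ)} (hf : ∀ n, f n ∈ D.dom)
    (hg : Tendsto f atTop (𝓝 g))
    (hc : ∀ η > 0, ∃ N, ∀ n ≥ N, ∀ m ≥ N, D.I 1 (f n - f m) (f n - f m) ≤ η) :
    g ∈ D.dom ∧ Tendsto (fun n => D.I 1 (f n - g) (f n - g)) atTop (𝓝 0) := by
  have key : ∀ η > 0, ∃ N, ∀ n ≥ N, f n - g ∈ D.dom ∧ D.I 1 (f n - g) (f n - g) ≤ η := by
    intro η hη
    obtain ⟨N, hN⟩ := hc η hη
    exact ⟨N, fun n hn => D.lsc (fun m => f n - f (m + N)) _ η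
      (fun m => D.dom.sub_mem (hf n) (hf _))
      (tendsto_const_nhds.sub ((tendsto_add_atTop_iff_nat N).2 hg))
      fun m => hN n hn _ (Nat.le_add_left _ _)⟩
  constructor
  · obtain ⟨N, hN⟩ := key 1 one_pos
    simpa using D.dom.sub_mem (hf N) (hN N le_rfl).1
  · rw [Metric.tendsto_atTop]
    intro ε hε
    obtain ⟨N, hN⟩ := key (ε / 2) (half_pos hε)
    refine ⟨N, fun n hn => ?_⟩
    rw [Real.dist_eq, sub_zero, abs_of_nonneg (D.nonneg (fun _ => zero_le_one) (hN n hn).1)]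
    linarith [(hN n hn).2]

end Vale.Agent.P198
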