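import Vale.Agent.P198.E.B

/-! # P198 E/C: chain rule, Leibniz rule, Caccioppoli inequality -/

namespace Vale.Agent.P198
open Set Metric Filter Topology MeasureTheory
variable {G Z : Type} [Group G] [MetricSpace Z] [CompactSpace Z] [MulAction G Z]
  [ContinuousConstSMul G Z] [MeasurableSpace Z] [BorelSpace Z]

omit [CompactSpace Z] [MeasurableSpace Z] [BorelSpace Z] in
theorem cx_cont_EC (u v : C(Z, ℝ)) : Continuous (cx u v) := by
  have e : cx u v = fun ξ => (u ξ : ℂ) + (v ξ : ℂ) * Complex.I :=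
    funext fun ξ => Complex.mk_eq_add_mul_I _ _
  rw [e]
  fun_prop

theorem lin_EC (L : ℂ →L[ℝ] ℝ) (x y : ℝ) : L ⟨x, y⟩ = L 1 * x + L Complex.I * y := by
  have e : (⟨x, y⟩ : ℂ) = x • (1 : ℂ) + y • Complex.I := by
    apply Complex.ext <;> simp
  rw [e, map_add, map_smul, map_smul, smul_eq_mul, smul_eq_mul]
  ring

theorem DF.chain_EC (D : DF G Z) {u v : C(Z, ℝ)} (hu : u ∈ D.dom) (hv : v ∈ D.dom) {ψ : ℂ → ℝ}
    (hψ : ContDiff ℝ 1 ψ) {h a b : C(Z, ℝ)} (hh : ∀ ξ, h ξ = ψ (cx u v ξ))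
    (ha : ∀ ξ, a ξ = fderiv ℝ ψ (cx u v ξ) 1) (hb : ∀ ξ, b ξ = fderiv ℝ ψ (cx u v ξ) Complex.I)
    {θ g : C(Z, ℝ)} (hθ : ∀ ξ, 0 ≤ θ ξ) (hg : g ∈ D.dom) :
    0 ≤ D.I θ h g - D.I (θ * a) u g - D.I (θ * b) v g := by
  have hm := D.c1mem hu hv hψ hh
  refine nonneg_of_eps (C := D.I θ u u + D.I θ v v + 3 / 2 * D.I θ g g) fun η hη => ?_
  refine pou_add (fun ρ => D.I ρ h g - D.I (ρ * a) u g - D.I (ρ * b) v g +
    η * (D.I ρ u u + D.I ρ v v + 3 / 2 * D.I ρ g g)) (fun x y => ?_) hθ fun ξ => ?_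
  · simp only [add_mul, map_add, LinearMap.add_apply]
    ring
  have hs := (hψ.hasStrictFDerivAt (x := cx u v ξ) one_ne_zero).sub
    (fderiv ℝ ψ (cx u v ξ)).hasStrictFDerivAt
  obtain ⟨S, hS, hL⟩ := hs.exists_lipschitzOnWith_of_nnnorm_lt ⟨η, hη.le⟩ (by
    rw [sub_self, nnnorm_zero]
    exact hη)
  have hW := (((cx_cont_EC u v).tendsto ξ).eventually hS).and
    ((ev_close a ξ hη).and (ev_close b ξ hη))
  refine ⟨_, interior_mem_nhds.2 hW, fun ρ h0 hρ => ?_⟩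
  have hd : h - a ξ • u - b ξ • v ∈ D.dom :=
    D.dom.sub_mem (D.dom.sub_mem hm (D.dom.smul_mem _ hu)) (D.dom.smul_mem _ hv)
  have h1 := D.ccontr hu hv hd hL isOpen_interior (fun ζ hζ => (interior_subset hζ).1)
    (fun ζ _ => by
      simp only [ContinuousMap.sub_apply, ContinuousMap.smul_apply, smul_eq_mul, hh, ha ξ, hb ξ,
        Pi.sub_apply]
      rw [show cx u v ζ = ⟨u ζ, v ζ⟩ from rfl, lin_EC _ (u ζ) (v ζ)]
      ring) h0 hρ
  have h2 := D.amgm (θ := ρ) (κ := ρ) (fun ζ => (abs_of_nonneg (h0 ζ)).le) hd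
    (D.dom.smul_mem η hg)
  have h3 := D.frz h0 (fun ζ hζ => (interior_subset (hρ hζ)).2.1) hu hg
  have h4 := D.frz h0 (fun ζ hζ => (interior_subset (hρ hζ)).2.2) hv hg
  have e1 : D.I ρ (η • g) (η • g) = η * (η * D.I ρ g g) := by
    simp only [map_smul, LinearMap.smul_apply, smul_eq_mul]
  have e2 : D.I ρ (h - a ξ • u - b ξ • v) (η • g) =
      η * (D.I ρ h g - a ξ * D.I ρ u g - b ξ * D.I ρ v g) := by
    simp only [map_smul, map_sub, LinearMap.smul_apply, LinearMap.sub_apply, smul_eq_mul]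
  rw [e1, e2, abs_mul, abs_of_pos hη] at h2
  have h5 : 2 * |D.I ρ h g - a ξ * D.I ρ u g - b ξ * D.I ρ v g| ≤
      η * (D.I ρ u u + D.I ρ v v + D.I ρ g g) := by
    refine le_of_mul_le_mul_left ?_ hη
    have h6 : _ ≤ η ^ 2 * (D.I ρ u u + D.I ρ v v) := h1
    linarith
  linarith [neg_abs_le (D.I ρ h g - a ξ * D.I ρ u g - b ξ * D.I ρ v g),
    le_abs_self (D.I (ρ * a) u g - a ξ * D.I ρ u g), le_abs_self (D.I (ρ * b) v g - b ξ * D.I ρ v g)]

/-- The chain rule. -/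
theorem DF.chain (D : DF G Z) {u v : C(Z, ℝ)} (hu : u ∈ D.dom) (hv : v ∈ D.dom) {ψ : ℂ → ℝ}
    (hψ : ContDiff ℝ 1 ψ) {h a b : C(Z, ℝ)} (hh : ∀ ξ, h ξ = ψ (cx u v ξ))
    (ha : ∀ ξ, a ξ = fderiv ℝ ψ (cx u v ξ) 1) (hb : ∀ ξ, b ξ = fderiv ℝ ψ (cx u v ξ) Complex.I) :
    h ∈ D.dom ∧ ∀ θ : C(Z, ℝ), ∀ g ∈ D.dom, D.I θ h g = D.I (θ * a) u g + D.I (θ * b) v g := by
  refine ⟨D.c1mem hu hv hψ hh, fun θ g hg => ?_⟩
  have k : ∀ θ : C(Z, ℝ), (∀ ξ, 0 ≤ θ ξ) →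
      D.I θ h g = D.I (θ * a) u g + D.I (θ * b) v g := fun θ hθ => by
    have h1 := D.chain_EC hu hv hψ hh ha hb hθ hg
    have h2 := D.chain_EC hu hv hψ hh ha hb hθ (D.dom.neg_mem hg)
    simp only [map_neg] at h2
    linarith
  have h1 := k (θ + ‖θ‖ • 1) fun ξ => by
    have := neg_le_of_abs_le (θ.norm_coe_le_norm ξ)
    simp only [ContinuousMap.add_apply, ContinuousMap.smul_apply, ContinuousMap.one_apply,
      smul_eq_mul]
    linarith
  have h2 := k (‖θ‖ • 1) fun ξ => by simp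
  simp only [add_mul, map_add, LinearMap.add_apply] at h1
  linarith

/-- The chain rule in one variable. -/
theorem DF.chain1 (D : DF G Z) {u : C(Z, ℝ)} (hu : u ∈ D.dom) {T T' : ℝ → ℝ}
    (hT : ∀ s, HasDerivAt T (T' s) s) (hT' : Continuous T') {h a : C(Z, ℝ)}
    (hh : ∀ ξ, h ξ = T (u ξ)) (ha : ∀ ξ, a ξ = T' (u ξ)) :
    h ∈ D.dom ∧ ∀ θ : C(Z, ℝ), ∀ g ∈ D.dom, D.I θ h g = D.I (θ * a) u g := by
  have hd : deriv T = T' := funext fun s => (hT s).deriv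
  have hc : ContDiff ℝ 1 T :=
    contDiff_one_iff_deriv.2 ⟨fun s => (hT s).differentiableAt, hd.symm ▸ hT'⟩
  have hf : ∀ z : ℂ, fderiv ℝ (fun z : ℂ => T z.re) z = T' z.re • Complex.reCLM := fun z =>
    ((hT z.re).comp_hasFDerivAt z Complex.reCLM.hasFDerivAt).fderiv
  obtain ⟨h1, h2⟩ := D.chain (ψ := fun z => T z.re) hu D.dom.zero_mem
    (hc.comp Complex.reCLM.contDiff) (h := h) (a := a) (b := 0) hh
    (fun ξ => by simp [hf, ha, cx]) fun ξ => by simp [hf]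
  exact ⟨h1, fun θ g hg => by simpa using h2 θ g hg⟩

/-- The Leibniz rule. -/
theorem DF.leib (D : DF G Z) (θ : C(Z, ℝ)) {f g h : C(Z, ℝ)} (hf : f ∈ D.dom) (hg : g ∈ D.dom)
    (hh : h ∈ D.dom) : D.I θ (f * g) h = D.I (θ * f) g h + D.I (θ * g) f h := by
  have hd : ∀ z : ℂ, fderiv ℝ (fun z : ℂ => z.re * z.im) z =
      z.re • Complex.imCLM + z.im • Complex.reCLM := fun z =>
    (Complex.reCLM.hasFDerivAt.fun_mul Complex.imCLM.hasFDerivAt).fderiv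
  have e := (D.chain (ψ := fun z => z.re * z.im) hf hg
    (Complex.reCLM.contDiff.mul Complex.imCLM.contDiff) (h := f * g) (a := g) (b := f)
    (fun _ => rfl) (fun ξ => by simp [hd, cx]) fun ξ => by simp [hd, cx]).2 θ h hh
  rw [e, add_comm]

/-- The Caccioppoli inequality. -/
theorem DF.cacc {D : DF G Z} {O : Set Z} {u χ : C(Z, ℝ)} (hu : D.Harm O u) (hχ : χ ∈ D.dom)
    (hO : tsupport χ ⊆ O) {a : ℝ} (ha : ∀ ξ ∈ tsupport χ, |u ξ| ≤ a) :
    D.I 1 (χ * u) (χ * u) ≤ 10 * a ^ 2 * D.I 1 χ χ := by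
  have hm := D.mul_mem hχ hu.1
  have e0 := hu.2 _ (D.mul_mem hχ hm) ((tsupport_mul_subset_left (f := χ) (g := χ * u)).trans hO)
  have e1 := D.leib 1 hχ hu.1 hm
  have e2 := D.leib 1 hχ hm hu.1
  have e3 := D.leib u hχ hu.1 hχ
  rw [one_mul, one_mul, D.symm χ u, D.symm u χ] at e1
  rw [one_mul, one_mul, D.symm 1, e0] at e2
  rw [mul_comm u χ, D.symm (χ * u) u] at e3
  have E0 := D.nonneg (θ := 1) (fun _ => zero_le_one) hχ
  have k : 0 ≤ a ^ 2 * D.I 1 χ χ - D.I (u * u) χ χ := by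
    refine nonneg_of_eps (C := D.I 1 χ χ) fun η hη => ?_
    let θ : C(Z, ℝ) := ⟨fun ξ => max (u ξ * u ξ - (a ^ 2 + η)) 0, by fun_prop⟩
    have hθ : tsupport θ ⊆ (tsupport χ)ᶜ := by
      refine (closure_minimal (t := {ξ | a ^ 2 + η ≤ u ξ * u ξ}) (fun ξ hξ => ?_)
        (isClosed_le continuous_const (by fun_prop))).trans fun ξ hξ h => ?_
      · by_contra h
        exact hξ (max_eq_right (sub_nonpos.2 (not_le.1 h).le))
      · have h1 := sq_le_sq' (neg_le_of_abs_le (ha ξ h)) (le_of_abs_le (ha ξ h))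
        have h2 : a ^ 2 + η ≤ u ξ * u ξ := hξ
        linarith
    have h1 := D.loc hχ D.dom.zero_mem hχ (isClosed_tsupport χ).isOpen_compl hθ 0
      fun ξ hξ => by simpa using image_eq_zero_of_notMem_tsupport hξ
    have h2 := D.nonneg (θ := (a ^ 2 + η) • (1 : C(Z, ℝ)) + θ - u * u) (fun ξ => by
      have : u ξ * u ξ - (a ^ 2 + η) ≤ θ ξ := le_max_left _ _
      simp only [ContinuousMap.add_apply, ContinuousMap.sub_apply, ContinuousMap.smul_apply,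
        ContinuousMap.one_apply, ContinuousMap.mul_apply, smul_eq_mul]
      linarith) hχ
    simp only [map_add, map_sub, map_smul, LinearMap.add_apply, LinearMap.sub_apply,
      LinearMap.smul_apply, smul_eq_mul, h1, map_zero, LinearMap.zero_apply] at h2
    linarith
  have := mul_nonneg (sq_nonneg a) E0
  linarith

end Vale.Agent.P198
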