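import Vale.Agent.P198.E.C
import Vale.Agent.P198.G.Main
import Vale.Agent.P198.M.Main

/-! # P198 E/D: maximum principle
Plan. `zero_const`: `closedBall ξ (2 R) ⊆ W`, `V ∈ 𝓝 ξ` preconnected in `closedBall ξ R` (`sph_conn X.sph`, locally
connected). If `ω₀, ω₁ ∈ V`, `f ω₀ < f ω₁`: `bump` for `K = univ` gives continua `K₀ ∋ ω₀`, `K₁ ∋ ω₁` of diameter `≥ ε`
in `closedBall ωᵢ ε` (`ε ≤ R`, `ε ≤ dist ω₀ ω₁`, `f` within a third of the gap), `D.l2` with `σ = V`,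
`τ = ε / (diam V + 1)`; `cthickening ε V ⊆ W` (`cthickening_singleton`, `cthickening_cthickening_subset`).
`maxp`: `Y = closedBall ξ r ∩ {u ξ ≤ u}`, `K = connectedComponentIn Y ξ`. If `K ⊆ ball ξ r` take `W` from `sep_comp`;
`u < t < u ξ` on the compact `frontier W`; `T s = ∫ x in t..s, max (x - t) 0`, `h = W.indicator (T ∘ u)` is near each
point `T ∘ u` or `0` (`mem_loc`, `chain1`), `K' = closure W ∩ {t ≤ u} ⊆ W`, `θ` from `cutoff K' W`:
`0 = I 1 h u = I θ h u + I (1 - θ) h u = I θ (T ∘ u) u = ∫ θ T'(u) dΓ u` (`loc` twice, `chain1`, `repr`), so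
`Γ u (W ∩ {t < u}) = 0`; by `zero_const` the set `W ∩ {u = u ξ}` is clopen, contains `ξ`, misses `ζ`.
`equi`: `maxp` for `u` and `-u` with radius `r` at `ξ`, `ζ`, `D.l1` with `ε = r`, `τ = min τ₀ 1`. -/

namespace Vale.Agent.P198
open Set Metric Filter Topology MeasureTheory
variable {G Z : Type} [Group G] [MetricSpace Z] [CompactSpace Z] [MulAction G Z]
  [ContinuousConstSMul G Z] [MeasurableSpace Z] [BorelSpace Z]

omit [CompactSpace Z] [MeasurableSpace Z] [BorelSpace Z] in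
theorem diam_ED {K : Set Z} (hK : Cont K) {p ω : Z} (hp : p ∈ K) (hω : ω ∈ K) {r : ℝ}
    (h : dist ω p = r) : r ≤ diam K := by
  rw [← h]
  exact dist_le_diam_of_mem hK.1.isBounded hω hp

omit [BorelSpace Z] in
theorem not_lt_ED (X : GP G Z) (D : DF G Z) {f : C(Z, ℝ)} (hf : f ∈ D.dom) {V : Set Z}
    (hV : IsPreconnected V) {R : ℝ} (hR : 0 < R) (h : D.Γ f (cthickening R V) = 0) {ω₀ ω₁ : Z}
    (h₀ : ω₀ ∈ V) (h₁ : ω₁ ∈ V) : ¬ f ω₀ < f ω₁ := by
  intro hlt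
  haveI := (sph_conn X.sph).1
  have hne : 0 < dist ω₁ ω₀ := dist_pos.2 fun e => by
    rw [e] at hlt
    exact lt_irrefl _ hlt
  have hg : 0 < (f ω₁ - f ω₀) / 3 := by linarith
  obtain ⟨δ, hδ, hu⟩ := Metric.uniformContinuous_iff_le.1
    (CompactSpace.uniformContinuous_of_continuous f.continuous) _ hg
  set ε := min δ (min R (dist ω₁ ω₀)) with hε
  have e0 : 0 < ε := lt_min hδ (lt_min hR hne)
  have e1 : ε ≤ δ := min_le_left _ _
  have e2 : ε ≤ R := (min_le_right _ _).trans (min_le_left _ _)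
  have e3 : ε ≤ dist ω₁ ω₀ := (min_le_right _ _).trans (min_le_right _ _)
  have hU : Cont (univ : Set Z) := ⟨isCompact_univ, isConnected_univ⟩
  obtain ⟨K₀, c₀, s₀, m₀, p₀, hp₀, d₀⟩ := bump hU (mem_univ ω₀) (mem_univ ω₁) e0.le e3
  obtain ⟨K₁, c₁, s₁, m₁, p₁, hp₁, d₁⟩ := bump hU (mem_univ ω₁) (mem_univ ω₀) e0.le
    (by rwa [dist_comm])
  have hc : Cfg f K₀ K₁ ε (f ω₀ + (f ω₁ - f ω₀) / 3) (f ω₁ - (f ω₁ - f ω₀) / 3) := by
    refine ⟨c₀, c₁, e0, diam_ED c₀ m₀ hp₀ d₀, diam_ED c₁ m₁ hp₁ d₁, by linarith,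
      fun ξ hξ => ?_, fun ξ hξ => ?_⟩
    · have := hu ((mem_closedBall.1 (s₀ hξ).2).trans e1)
      rw [Real.dist_eq] at this
      linarith [(abs_le.1 this).2]
    · have := hu ((mem_closedBall.1 (s₁ hξ).2).trans e1)
      rw [Real.dist_eq] at this
      linarith [(abs_le.1 this).1]
  have hd : 0 ≤ diam V := diam_nonneg
  obtain ⟨c, hc0, hl⟩ := D.l2 (ε / (diam V + 1)) (by positivity)
  have h1 := hl f hf K₀ K₁ ε _ _ hc V hV ⟨ω₀, h₀, m₀⟩ ⟨ω₁, h₁, m₁⟩ (by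
    rw [div_mul_eq_mul_div, div_le_iff₀ (by positivity)]
    nlinarith)
  rw [measureReal_def, measure_mono_null (cthickening_mono e2 V) h, ENNReal.toReal_zero] at h1
  have h2 : 0 < f ω₁ - (f ω₁ - f ω₀) / 3 - (f ω₀ + (f ω₁ - f ω₀) / 3) := by linarith
  exact absurd h1 (not_le.2 (by positivity))

theorem DF.zero_const (X : GP G Z) (D : DF G Z) {f : C(Z, ℝ)} (hf : f ∈ D.dom) {W : Set Z}
    (hW : IsOpen W) (h : D.Γ f W = 0) : ∀ ξ ∈ W, ∀ᶠ ζ in 𝓝 ξ, f ζ = f ξ := by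
  intro ξ hξ
  haveI := (sph_conn X.sph).2.1
  obtain ⟨ρ, hρ, hs⟩ := nhds_basis_closedBall.mem_iff.1 (hW.mem_nhds hξ)
  have hR : 0 < ρ / 2 := half_pos hρ
  obtain ⟨V, hV, hc, hVs⟩ := locallyConnectedSpace_iff_connected_subsets.1 inferInstance ξ _
    (closedBall_mem_nhds ξ hR)
  have h1 : cthickening (ρ / 2) V ⊆ W := by
    rw [← cthickening_singleton ξ hR.le] at hVs
    refine ((cthickening_subset_of_subset _ hVs).trans
      (cthickening_cthickening_subset hR.le hR.le _)).trans ?_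
    rwa [add_halves, cthickening_singleton ξ hρ.le]
  have h2 := measure_mono_null h1 h
  have h3 := mem_of_mem_nhds hV
  filter_upwards [hV] with ζ hζ
  exact le_antisymm (not_lt.1 (not_lt_ED X D hf hc hR h2 h3 hζ))
    (not_lt.1 (not_lt_ED X D hf hc hR h2 hζ h3))

theorem null_ED {D : DF G Z} {O W : Set Z} {u : C(Z, ℝ)} (hu : D.Harm O u) (hW : IsOpen W)
    (hO : W ⊆ O) {t : ℝ} (ht : ∀ ω ∈ frontier W, u ω < t) : D.Γ u (W ∩ {ω | t < u ω}) = 0 := by
  classical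
  have hc : Continuous fun x : ℝ => max (x - t) 0 := by fun_prop
  set T : ℝ → ℝ := fun s => ∫ x in t..s, max (x - t) 0 with hT
  have dT : ∀ s, HasDerivAt T (max (s - t) 0) s := fun s =>
    (hc.integral_hasStrictDerivAt t s).hasDerivAt
  have T0 : ∀ s, s ≤ t → T s = 0 := fun s hs => by
    have : T s = ∫ _ in t..s, (0 : ℝ) := by
      refine intervalIntegral.integral_congr fun x hx => max_eq_right ?_
      rw [uIcc_of_ge hs] at hx
      linarith [hx.2]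
    rw [this, intervalIntegral.integral_zero]
  have cT : Continuous T := continuous_iff_continuousAt.2 fun s => (dT s).continuousAt
  set Tu : C(Z, ℝ) := ⟨fun ω => T (u ω), cT.comp u.continuous⟩ with hTu
  set a : C(Z, ℝ) := ⟨fun ω => max (u ω - t) 0, hc.comp u.continuous⟩ with ha
  obtain ⟨mT, ch⟩ := D.chain1 hu.1 dT hc (h := Tu) (a := a) (fun _ => rfl) fun _ => rfl
  set K : Set Z := closure W ∩ {ω | t ≤ u ω} with hK
  have cK : IsClosed K := isClosed_closure.inter (isClosed_le continuous_const u.continuous)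
  have KW : K ⊆ W := fun ω hω => by
    by_contra h
    exact absurd hω.2 (not_le.2 (ht ω (by rw [hW.frontier_eq]; exact ⟨hω.1, h⟩)))
  have e1 : ∀ ω ∈ W, W.indicator Tu ω = Tu ω := fun ω hω => indicator_of_mem hω _
  have e2 : ∀ ω ∈ Kᶜ, W.indicator Tu ω = 0 := fun ω hω => by
    by_cases h : ω ∈ W
    · rw [e1 ω h]
      refine T0 _ (not_lt.1 fun h1 => hω ⟨subset_closure h, h1.le⟩)
    · exact indicator_of_notMem h _
  have e3 : ∀ ω, (∀ᶠ x in 𝓝 ω, W.indicator Tu x = Tu x) ∨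
      ∀ᶠ x in 𝓝 ω, W.indicator Tu x = (0 : C(Z, ℝ)) x := fun ω => by
    by_cases h : ω ∈ W
    · exact Or.inl (mem_of_superset (hW.mem_nhds h) e1)
    · exact Or.inr (mem_of_superset (cK.isOpen_compl.mem_nhds fun h1 => h (KW h1)) e2)
  have ch' : Continuous (W.indicator Tu) := continuous_iff_continuousAt.2 fun ω => by
    rcases e3 ω with h | h
    · exact Tu.continuous.continuousAt.congr (EventuallyEq.symm h)
    · exact (0 : C(Z, ℝ)).continuous.continuousAt.congr (EventuallyEq.symm h)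
  set h : C(Z, ℝ) := ⟨W.indicator Tu, ch'⟩ with hh
  have mh : h ∈ D.dom := D.mem_loc fun ω => by
    rcases e3 ω with h1 | h1
    · exact ⟨Tu, mT, h1⟩
    · exact ⟨0, D.dom.zero_mem, h1⟩
  have sh : tsupport h ⊆ K := closure_minimal (fun ω hω => by_contra fun h1 => hω (e2 ω h1)) cK
  have z0 := hu.2 h mh (sh.trans (KW.trans hO))
  obtain ⟨θ, -, b01, θ1, θW⟩ := D.cutoff cK.isCompact hW KW
  have θK : ∀ ω ∈ K, ∀ᶠ x in 𝓝 ω, θ x = 1 := fun ω hω => (eventually_nhdsSet_iff_forall.1 θ1) ω hω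
  have l1 : D.I θ h u = D.I θ Tu u := D.loc mh mT hu.1 hW θW 0 fun ω hω => by
    rw [add_zero]
    exact e1 ω hω
  have l2 : D.I (1 - θ) h u = D.I (1 - θ) 0 u := by
    refine D.loc mh D.dom.zero_mem hu.1 cK.isOpen_compl (fun ω hω hωK => ?_) 0 fun ω hω => ?_
    · refine notMem_tsupport_iff_eventuallyEq.2 ?_ hω
      filter_upwards [θK ω hωK] with x hx
      simp [hx]
    · rw [add_zero]
      exact e2 ω hω
  have z1 : ∫ ω, (θ * a) ω ∂D.Γ u = 0 := by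
    rw [← D.repr _ u hu.1, ← ch θ u hu.1, ← l1]
    rw [map_sub, LinearMap.sub_apply, LinearMap.sub_apply, map_zero, LinearMap.zero_apply,
      D.symm 1 h u, z0] at l2
    linarith
  haveI := D.fin u
  have z2 := (integral_eq_zero_iff_of_nonneg
    (fun ω => mul_nonneg (b01 ω).1 (le_max_right (u ω - t) 0))
    ((θ * a).continuous.integrable_of_hasCompactSupport (HasCompactSupport.of_compactSpace _))).1 z1
  refine measure_mono_null (fun ω hω => ?_) (ae_iff.1 z2)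
  have h0 : t < u ω := hω.2
  have h1 : θ ω = 1 := (θK ω ⟨subset_closure hω.1, h0.le⟩).self_of_nhds
  have h2 : 0 < max (u ω - t) 0 := lt_max_of_lt_left (sub_pos.2 h0)
  intro h3
  have h4 : θ ω * max (u ω - t) 0 = 0 := h3
  rw [h1, one_mul] at h4
  exact h2.ne' h4

/-- The maximum principle. -/
theorem DF.maxp (X : GP G Z) {D : DF G Z} {O : Set Z} {u : C(Z, ℝ)} (hu : D.Harm O u) {ξ ζ : Z}
    {r : ℝ} (hr : 0 < r) (hO : closedBall ξ r ⊆ O) (hζ : r ≤ dist ζ ξ) :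
    ∃ K, Cont K ∧ ξ ∈ K ∧ K ⊆ closedBall ξ r ∧ (∃ ω ∈ K, dist ω ξ = r) ∧ ∀ ω ∈ K, u ξ ≤ u ω := by
  haveI := (sph_conn X.sph).1
  set Y : Set Z := closedBall ξ r ∩ {ω | u ξ ≤ u ω} with hY
  have cY : IsCompact Y :=
    (isClosed_closedBall.inter (isClosed_le continuous_const u.continuous)).isCompact
  have mY : ξ ∈ Y := ⟨mem_closedBall_self hr.le, le_refl (u ξ)⟩
  have sK := connectedComponentIn_subset Y ξ
  have cK : IsCompact (connectedComponentIn Y ξ) := by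
    haveI := isCompact_iff_compactSpace.1 cY
    rw [connectedComponentIn_eq_image mY]
    exact isClosed_connectedComponent.isCompact.image continuous_subtype_val
  refine ⟨_, ⟨cK, isConnected_connectedComponentIn_iff.2 mY⟩, mem_connectedComponentIn mY,
    fun ω hω => (sK hω).1, ?_, fun ω hω => (sK hω).2⟩
  by_contra hn
  obtain ⟨W, hW, KW, Wb, hd⟩ := sep_comp cY isOpen_ball mY (N := ball ξ r) fun ω hω =>
    lt_of_le_of_ne (sK hω).1 fun e => hn ⟨ω, hω, e⟩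
  obtain ⟨a, ha, hb⟩ := isClosed_frontier.isCompact.exists_forall_le' (s := frontier W)
    u.continuous.neg.continuousOn (a := -u ξ) fun ω hω => neg_lt_neg (not_le.1 fun h =>
      disjoint_left.1 hd hω ⟨ball_subset_closedBall (Wb (frontier_subset_closure hω)), h⟩)
  have ht : ∀ ω ∈ frontier W, u ω < (u ξ - a) / 2 := fun ω hω => by
    have : a ≤ -u ω := hb ω hω
    linarith
  have ht' : (u ξ - a) / 2 < u ξ := by linarith
  have z := null_ED hu hW ((subset_closure.trans Wb).trans (ball_subset_closedBall.trans hO)) ht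
  have lc := D.zero_const X hu.1 (hW.inter (isOpen_lt continuous_const u.continuous)) z
  have o1 : IsOpen (W ∩ {ω | u ω = u ξ}) := isOpen_iff_mem_nhds.2 fun ω hω => by
    filter_upwards [hW.mem_nhds hω.1, lc ω ⟨hω.1, ht'.trans_eq (Eq.symm hω.2)⟩] with x h1 h2
    exact ⟨h1, h2.trans hω.2⟩
  have o2 : IsClosed (W ∩ {ω | u ω = u ξ}) := by
    have : W ∩ {ω | u ω = u ξ} = closure W ∩ {ω | u ω = u ξ} := by
      refine Subset.antisymm (inter_subset_inter_left _ subset_closure) fun ω hω => ⟨?_, hω.2⟩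
      by_contra h
      have h1 := ht ω (by rw [hW.frontier_eq]; exact ⟨hω.1, h⟩)
      have h2 : u ω = u ξ := hω.2
      linarith
    rw [this]
    exact isClosed_closure.inter (isClosed_eq u.continuous continuous_const)
  have e := IsClopen.eq_univ ⟨o2, o1⟩ ⟨ξ, KW (mem_connectedComponentIn mY), rfl⟩
  have h1 : ζ ∈ W ∩ {ω | u ω = u ξ} := e ▸ mem_univ ζ
  exact absurd hζ (not_le.2 (Wb (subset_closure h1.1)))

/-- Equicontinuity of harmonic functions. -/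
theorem DF.equi (X : GP G Z) (D : DF G Z) (M : ℝ) : ∃ τ > 0, ∀ (O : Set Z) (u : C(Z, ℝ)),
    D.Harm O u → ∀ (ξ ω : Z) (r : ℝ), 0 < r → closedBall ξ (4 * r) ⊆ O → 4 * r ≤ dist ω ξ →
      ∀ ζ, dist ζ ξ ≤ τ * r → M * (u ξ - u ζ) ^ 2 ≤ (D.Γ u).real (closedBall ξ (2 * r)) := by
  obtain ⟨τ, hτ, hl⟩ := D.l1 M
  refine ⟨min τ 1, lt_min hτ one_pos, fun O u hu ξ ω r hr hO hω ζ hζ => ?_⟩
  haveI := D.fin u
  have hn : D.Harm O (-u) := ⟨D.dom.neg_mem hu.1, fun h hh hs => by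
    rw [map_neg, LinearMap.neg_apply, hu.2 h hh hs, neg_zero]⟩
  have b1 : ∀ p, dist p ξ ≤ r → closedBall p r ⊆ closedBall ξ (2 * r) := fun p hp =>
    closedBall_subset_closedBall' (by linarith)
  have b2 : ∀ p, dist p ξ ≤ r → closedBall p r ⊆ O := fun p hp =>
    (b1 p hp).trans ((closedBall_subset_closedBall (by linarith)).trans hO)
  have b3 : ∀ p, dist p ξ ≤ r → r ≤ dist ω p := fun p hp => by
    linarith [dist_triangle ω p ξ]
  have key : ∀ p₀ p₁, dist p₀ ξ ≤ r → dist p₁ ξ ≤ r → dist p₀ p₁ ≤ τ * r → u p₀ ≤ u p₁ →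
      M * (u p₁ - u p₀) ^ 2 ≤ (D.Γ u).real (closedBall ξ (2 * r)) := by
    intro p₀ p₁ h₀ h₁ hd hle
    obtain ⟨K₀, c₀, m₀, -, ⟨x₀, hx₀, d₀⟩, f₀⟩ := DF.maxp X hn hr (b2 p₀ h₀) (b3 p₀ h₀)
    obtain ⟨K₁, c₁, m₁, -, ⟨x₁, hx₁, d₁⟩, f₁⟩ := DF.maxp X hu hr (b2 p₁ h₁) (b3 p₁ h₁)
    refine (hl u hu.1 K₀ K₁ r _ _ ⟨c₀, c₁, hr, diam_ED c₀ m₀ hx₀ d₀, diam_ED c₁ m₁ hx₁ d₁, hle,
      fun x hx => ?_, f₁⟩ p₀ m₀ p₁ m₁ hd).trans (measureReal_mono (b1 p₀ h₀))
    exact neg_le_neg_iff.1 (f₀ x hx)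
  have d1 : dist ζ ξ ≤ τ * r := hζ.trans (mul_le_mul_of_nonneg_right (min_le_left _ _) hr.le)
  have d2 : dist ζ ξ ≤ r := hζ.trans (mul_le_of_le_one_left hr.le (min_le_right _ _))
  have d3 : dist ξ ξ ≤ r := by
    rw [dist_self]
    exact hr.le
  rcases le_total (u ζ) (u ξ) with h | h
  · exact key ζ ξ d2 d3 d1 h
  · rw [← neg_sub, neg_sq]
    exact key ξ ζ d3 d2 (by rwa [dist_comm]) h

end Vale.Agent.P198
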